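import Vale.Agent.Lib.P038.SatK.Shapes.S5_3_0f
noncomputable section
namespace Vale.Agent.Lib.P038.SatK.I.P5_3
open Vale.Agent.Lib.P038.Sat Vale.Agent.Lib.P038.SatK
def W : Nat := 175
def M : Nat := 47890485652059026823698344598447161988085597568237567
def GT : Nat := 363626825348135194504085946412995443269000655933453203749909372795045287154086316818602608759284990147699991458879244887914909256674808946828521115352203320592742567193894941110044059047054170706660057106152492735760377758690846732051364128502472141163425166517389973434073026992696492918927041578131409923215799506260876111916405792191392112718888540139738201320456779920730854884501300249320096568704014610865769381804018573402745465316503145781801075417952431030111756773724206253181808133893447871173845878908436480882956101749975210292913125290434851475089697330831005724122762552836010093880585651848014144549773703985040696795602021867021286739556380937811724178652093835857087720351849043750820284723327333265915783121504752678539780254959880080195395479984474671109873045708677419647632855083079598330798091080261636256443177013611051484253361096176194058674688732972406095184842629252347075780029151831959979671779516181746996723921157825295230383895846980752432025719921677599922367040277171634734084291527283737875035427686646553935769380794693053576106727164901334972616334988808277703853263055218009427129168705309740161599262384485726889895003883927097382020087550779364442105292872966753622326618568578175807867359608456353046284331264569979728385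
def h0 : T := (T.l (nat_lit 0))
def H : T := h0
theorem hlast : getB H 0 = 0 := by decide +kernel
end Vale.Agent.Lib.P038.SatK.I.P5_3
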